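import Mathlib

/-!
# P171, the real-analysis endgame (LP5 + LP6)

An abstract statement with no project definitions.  The consumer instantiates
`f m = F(m, t')`, `G n sig = F(mu', t' + sig e_n)`, `h n m = F(m, t''_n)`,
`g m = F(m, 2 t')`, `l n = rho_n`, `tau n = sum_{k >= n} t'_k`,
`delta n = 1 / pi_n - 1`.

Proof idea.  If `f` had a derivative `D` at `mu'`, then `D <= a` by `hE1`.  Choose a slope
`gam > a` with `V / 2 * gam ^ 2 < c`; then `f (mu' + u) <= f mu' + gam * u` for small `u >= 0`.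
For a fixed small `sig` the terms of the sum in `hclaim` with `j / l ^ 3 >= d1` are negligible
by the quadratic bound `hquad`, and the other terms have exponent at most
`l ^ 3 * (f mu' + s * gam ^ 2 + o(1))` with `s = V / 2 * (sig + tau n)`.  Together with `hE2`
this gives `c * sig <= V / 2 * sig * gam ^ 2 + o(1)` as `n` tends to infinity: a contradiction.
-/

namespace Vale.Agent.H40.P171

open Filter Topology

/-- A geometric bound for a sum of exponentials. -/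
theorem tsum_exp_le (e : ℕ → ℝ) (A ϑ : ℝ) (hϑ : 0 < ϑ) (he : ∀ j : ℕ, e j ≤ A - ϑ * j) :
    ∑' j : ℕ, ENNReal.ofReal (Real.exp (e j)) ≤ ENNReal.ofReal (Real.exp A * (1 + 1 / ϑ)) := by
  have hr0 : 0 ≤ Real.exp (-ϑ) := (Real.exp_pos _).le
  have hr1 : Real.exp (-ϑ) < 1 := by
    have := Real.exp_lt_exp.mpr (neg_lt_zero.mpr hϑ)
    simpa using this
  have hstep : ∀ j : ℕ, ENNReal.ofReal (Real.exp (e j)) ≤
      ENNReal.ofReal (Real.exp A) * (ENNReal.ofReal (Real.exp (-ϑ))) ^ j := by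
    intro j
    rw [← ENNReal.ofReal_pow hr0, ← ENNReal.ofReal_mul (Real.exp_pos _).le, ← Real.exp_nat_mul,
      ← Real.exp_add]
    apply ENNReal.ofReal_le_ofReal
    apply Real.exp_le_exp.mpr
    have := he j
    linarith
  have hinv : (1 - ENNReal.ofReal (Real.exp (-ϑ)))⁻¹ ≤ ENNReal.ofReal (1 + 1 / ϑ) := by
    have h1 : (1 : ENNReal) - ENNReal.ofReal (Real.exp (-ϑ)) =
        ENNReal.ofReal (1 - Real.exp (-ϑ)) := by
      rw [ENNReal.ofReal_sub 1 hr0, ENNReal.ofReal_one]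
    rw [h1, ← ENNReal.ofReal_inv_of_pos (by linarith)]
    apply ENNReal.ofReal_le_ofReal
    have h2 : Real.exp (-ϑ) ≤ 1 / (1 + ϑ) := by
      rw [Real.exp_neg, one_div]
      apply inv_anti₀ (by linarith)
      linarith [Real.add_one_le_exp ϑ]
    have h3 : ϑ / (1 + ϑ) ≤ 1 - Real.exp (-ϑ) := by
      have : 1 - 1 / (1 + ϑ) = ϑ / (1 + ϑ) := by field_simp; ring
      linarith
    calc (1 - Real.exp (-ϑ))⁻¹ ≤ (ϑ / (1 + ϑ))⁻¹ := inv_anti₀ (by positivity) h3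
      _ = 1 + 1 / ϑ := by field_simp; ring
  calc ∑' j : ℕ, ENNReal.ofReal (Real.exp (e j))
      ≤ ∑' j : ℕ, ENNReal.ofReal (Real.exp A) * (ENNReal.ofReal (Real.exp (-ϑ))) ^ j :=
        ENNReal.tsum_le_tsum hstep
    _ = ENNReal.ofReal (Real.exp A) * (1 - ENNReal.ofReal (Real.exp (-ϑ)))⁻¹ := by
        rw [ENNReal.tsum_mul_left, ENNReal.tsum_geometric]
    _ ≤ ENNReal.ofReal (Real.exp A) * ENNReal.ofReal (1 + 1 / ϑ) := by gcongr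
    _ = ENNReal.ofReal (Real.exp A * (1 + 1 / ϑ)) := by
        rw [ENNReal.ofReal_mul (Real.exp_pos _).le]

theorem log_le_two_sqrt (y : ℝ) (hy : 0 < y) : Real.log y ≤ 2 * Real.sqrt y := by
  have h1 : Real.log (Real.sqrt y) ≤ Real.sqrt y - 1 :=
    Real.log_le_sub_one_of_pos (Real.sqrt_pos.mpr hy)
  rw [Real.log_sqrt hy.le] at h1
  linarith

/-- From the exponentiated claim to a bound on `G`. -/
theorem claim_consequence (L K s G S d1 μ' : ℝ) (hn : ℝ → ℝ) (hL : 1 ≤ L) (hs : 0 < s)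
    (hd1 : 0 ≤ d1) (hS : 0 ≤ S)
    (hhead : ∀ d, 0 ≤ d → d ≤ d1 → -s * d ^ 2 + K / L * hn (μ' + 2 * s * d) ≤ S)
    (htail : ∀ d, d1 ≤ d → -s * d ^ 2 + K / L * hn (μ' + 2 * s * d) ≤ -1 - s / 4 * d ^ 2)
    (hclaim : ENNReal.ofReal (Real.exp (L * G)) ≤
      ∑' j : ℕ, ENNReal.ofReal (Real.exp (-s * (j : ℝ) ^ 2 / L
        + K * hn (μ' + 2 * s * (j : ℝ) / L)))) :
    G ≤ S + (s * d1 / 4 + Real.log (1 + 4 * L / s)) / L := by
  have hL0 : 0 < L := by linarith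
  have hbound : ∀ j : ℕ, -s * (j : ℝ) ^ 2 / L + K * hn (μ' + 2 * s * (j : ℝ) / L) ≤
      (L * S + s * d1 / 4) - s / (4 * L) * j := by
    intro j
    have hj0 : (0 : ℝ) ≤ j := Nat.cast_nonneg j
    have hd0 : 0 ≤ (j : ℝ) / L := div_nonneg hj0 hL0.le
    have hrew : -s * (j : ℝ) ^ 2 / L + K * hn (μ' + 2 * s * (j : ℝ) / L) =
        L * (-s * ((j : ℝ) / L) ^ 2 + K / L * hn (μ' + 2 * s * ((j : ℝ) / L))) := by
      have : μ' + 2 * s * (j : ℝ) / L = μ' + 2 * s * ((j : ℝ) / L) := by ring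
      rw [this]; field_simp
    rw [hrew]
    have hlin : s / (4 * L) * j = s / 4 * ((j : ℝ) / L) := by field_simp
    rw [hlin]
    by_cases hc : (j : ℝ) / L ≤ d1
    · have h1 := hhead _ hd0 hc
      have h2 : L * (-s * ((j : ℝ) / L) ^ 2 + K / L * hn (μ' + 2 * s * ((j : ℝ) / L))) ≤ L * S :=
        mul_le_mul_of_nonneg_left h1 hL0.le
      have h3 : s / 4 * ((j : ℝ) / L) ≤ s / 4 * d1 :=
        mul_le_mul_of_nonneg_left hc (by positivity)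
      linarith
    · rw [not_le] at hc
      have h1 := htail _ hc.le
      have h2 : L * (-s * ((j : ℝ) / L) ^ 2 + K / L * hn (μ' + 2 * s * ((j : ℝ) / L))) ≤
          L * (-1 - s / 4 * ((j : ℝ) / L) ^ 2) :=
        mul_le_mul_of_nonneg_left h1 hL0.le
      have h4 : (j : ℝ) / L ≤ L * ((j : ℝ) / L) ^ 2 := by
        have h41 : L * ((j : ℝ) / L) ^ 2 = (j : ℝ) ^ 2 / L := by field_simp
        rw [h41]
        apply div_le_div_of_nonneg_right _ hL0.le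
        rcases Nat.eq_zero_or_pos j with h0 | hpos
        · simp [h0]
        · have h42 : (1 : ℝ) ≤ j := by exact_mod_cast hpos
          nlinarith
      have h5 : 0 ≤ L * S := by positivity
      have h6 : 0 ≤ s * d1 / 4 := by positivity
      have h7 : s / 4 * ((j : ℝ) / L) ≤ s / 4 * (L * ((j : ℝ) / L) ^ 2) :=
        mul_le_mul_of_nonneg_left h4 (by positivity)
      nlinarith
  have hϑ : 0 < s / (4 * L) := by positivity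
  have hsum := tsum_exp_le (fun j : ℕ => -s * (j : ℝ) ^ 2 / L + K * hn (μ' + 2 * s * (j : ℝ) / L))
    (L * S + s * d1 / 4) (s / (4 * L)) hϑ hbound
  have hle := hclaim.trans hsum
  have hpos : 0 < Real.exp (L * S + s * d1 / 4) * (1 + 1 / (s / (4 * L))) := by positivity
  rw [ENNReal.ofReal_le_ofReal_iff hpos.le] at hle
  have hlog := Real.log_le_log (Real.exp_pos _) hle
  rw [Real.log_exp, Real.log_mul (Real.exp_pos _).ne' (by positivity), Real.log_exp] at hlog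
  have h1 : (1 : ℝ) + 1 / (s / (4 * L)) = 1 + 4 * L / s := by field_simp
  rw [h1] at hlog
  have h2 : S + (s * d1 / 4 + Real.log (1 + 4 * L / s)) / L =
      (L * S + s * d1 / 4 + Real.log (1 + 4 * L / s)) / L := by field_simp; ring
  rw [h2, le_div_iff₀ hL0]
  linarith

/-- Head of the sum: the exponent is at most `S`. -/
theorem head_bound (f g hn : ℝ → ℝ) (μ' s κ δn ln γ w0 M B Vσ d1 d : ℝ)
    (hs : 0 < s) (hsle : s ≤ Vσ) (hVσ : 0 ≤ Vσ) (hδ0 : 0 ≤ δn) (hδ1 : δn ≤ 1)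
    (hγ : 0 ≤ γ) (hM : 0 ≤ M) (hB : B = |f μ'| + γ * w0 + M) (hB0 : 0 ≤ B)
    (hκ1 : 1 ≤ κ) (hκ7 : κ ≤ 1 + 7 / ln)
    (hd1w : 2 * Vσ * d1 ≤ w0)
    (hfw : ∀ u, 0 ≤ u → u ≤ w0 → f (μ' + u) ≤ f μ' + γ * u)
    (hgM : ∀ u, 0 ≤ u → u ≤ w0 → g (μ' + u) ≤ M)
    (hcmp : ∀ m, hn m ≤ f m + δn * g m)
    (hd0 : 0 ≤ d) (hdd : d ≤ d1) :
    -s * d ^ 2 + κ * hn (μ' + 2 * s * d) ≤ f μ' + s * γ ^ 2 + δn * M + 7 / ln * B := by
  have hu0 : 0 ≤ 2 * s * d := by positivity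
  have hu1 : 2 * s * d ≤ w0 := by
    have h1 : s * d ≤ Vσ * d1 := mul_le_mul hsle hdd hd0 hVσ
    linarith
  have h1 : hn (μ' + 2 * s * d) ≤ f μ' + γ * (2 * s * d) + δn * M := by
    have e1 := hcmp (μ' + 2 * s * d)
    have e2 := hfw _ hu0 hu1
    have e3 := mul_le_mul_of_nonneg_left (hgM _ hu0 hu1) hδ0
    linarith
  have h2 : hn (μ' + 2 * s * d) ≤ B := by
    have e1 : f μ' ≤ |f μ'| := le_abs_self _
    have e2 : γ * (2 * s * d) ≤ γ * w0 := mul_le_mul_of_nonneg_left hu1 hγ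
    have e3 : δn * M ≤ 1 * M := mul_le_mul_of_nonneg_right hδ1 hM
    rw [hB]; linarith
  have h3 : κ * hn (μ' + 2 * s * d) ≤ hn (μ' + 2 * s * d) + 7 / ln * B := by
    have e1 : (κ - 1) * hn (μ' + 2 * s * d) ≤ (κ - 1) * B :=
      mul_le_mul_of_nonneg_left h2 (by linarith)
    have e2 : (κ - 1) * B ≤ 7 / ln * B :=
      mul_le_mul_of_nonneg_right (by linarith) hB0
    linarith
  have h4 : -s * d ^ 2 + γ * (2 * s * d) ≤ s * γ ^ 2 := by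
    have e := mul_nonneg hs.le (sq_nonneg (d - γ))
    have e' : s * (d - γ) ^ 2 = s * γ ^ 2 - (-s * d ^ 2 + γ * (2 * s * d)) := by ring
    linarith
  linarith

/-- Tail of the sum: the exponent is very negative. -/
theorem tail_bound (hn : ℝ → ℝ) (μ' s κ C0 C1 K0 Vσ d1 d : ℝ)
    (hs : 0 < s) (hsle : s ≤ Vσ) (hsge : Vσ / 2 ≤ s) (hVσ : 0 < Vσ)
    (hC0 : 0 ≤ C0) (hC1 : 0 ≤ C1) (hK0 : K0 = 8 * C0 + 16 * C1 * μ' ^ 2)
    (hσ1 : 128 * C1 * Vσ ≤ 1) (hκ0 : 0 ≤ κ) (hκ8 : κ ≤ 8)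
    (hd1 : 0 ≤ d1) (hd1sq : d1 ^ 2 = 8 * (K0 + 1) / Vσ)
    (hquad : ∀ m, hn m ≤ C0 + C1 * m ^ 2) (hdd : d1 ≤ d) :
    -s * d ^ 2 + κ * hn (μ' + 2 * s * d) ≤ -1 - s / 4 * d ^ 2 := by
  have hd0 : 0 ≤ d := hd1.trans hdd
  have hsd : 0 ≤ s * d ^ 2 := by positivity
  have hQ : hn (μ' + 2 * s * d) ≤ C0 + C1 * (2 * μ' ^ 2 + 8 * s ^ 2 * d ^ 2) := by
    have e1 := hquad (μ' + 2 * s * d)
    have e2 : (μ' + 2 * s * d) ^ 2 ≤ 2 * μ' ^ 2 + 8 * s ^ 2 * d ^ 2 := by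
      have e21 := sq_nonneg (μ' - 2 * s * d)
      have e22 : 2 * μ' ^ 2 + 8 * s ^ 2 * d ^ 2 - (μ' + 2 * s * d) ^ 2 = (μ' - 2 * s * d) ^ 2 := by
        ring
      linarith
    have e3 := mul_le_mul_of_nonneg_left e2 hC1
    linarith
  have hQ0 : 0 ≤ C0 + C1 * (2 * μ' ^ 2 + 8 * s ^ 2 * d ^ 2) := by positivity
  have h1 : κ * hn (μ' + 2 * s * d) ≤ 8 * (C0 + C1 * (2 * μ' ^ 2 + 8 * s ^ 2 * d ^ 2)) := by
    have e1 := mul_le_mul_of_nonneg_left hQ hκ0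
    have e2 := mul_le_mul_of_nonneg_right hκ8 hQ0
    linarith
  have h2 : 64 * C1 * s ≤ 1 / 2 := by
    have e1 : C1 * s ≤ C1 * Vσ := mul_le_mul_of_nonneg_left hsle hC1
    linarith
  have h3 : 64 * C1 * s * (s * d ^ 2) ≤ 1 / 2 * (s * d ^ 2) :=
    mul_le_mul_of_nonneg_right h2 hsd
  have h4 : K0 + 1 ≤ s / 4 * d ^ 2 := by
    have e1 : d1 ^ 2 ≤ d ^ 2 := pow_le_pow_left₀ hd1 hdd 2
    have e2 : Vσ / 8 * d1 ^ 2 = K0 + 1 := by rw [hd1sq]; field_simp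
    have e3 : Vσ / 2 * d1 ^ 2 ≤ s * d ^ 2 := mul_le_mul hsge e1 (sq_nonneg d1) hs.le
    linarith
  have h5 : 8 * (C0 + C1 * (2 * μ' ^ 2 + 8 * s ^ 2 * d ^ 2)) =
      K0 + 64 * C1 * s * (s * d ^ 2) := by rw [hK0]; ring
  linarith

/-- The error terms are of order `1 / ln`. -/
theorem err_bound (s L ln Vσ d1 : ℝ) (hln : 1 ≤ ln) (hLdef : L = ln ^ 3)
    (hs : 0 < s) (hsle : s ≤ Vσ) (hsge : Vσ / 2 ≤ s) (hVσ : 0 < Vσ) (hd1 : 0 ≤ d1) :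
    (s * d1 / 4 + Real.log (1 + 4 * L / s)) / L ≤
      (Vσ * d1 / 4 + 2 * Real.sqrt (1 + 8 / Vσ)) * ln⁻¹ := by
  have hln0 : 0 < ln := by linarith
  have hL : 1 ≤ L := by rw [hLdef]; exact one_le_pow₀ hln
  have hL0 : 0 < L := by linarith
  have hLln : ln ≤ L := by rw [hLdef]; nlinarith [mul_nonneg hln0.le hln0.le]
  have hinvL : L⁻¹ ≤ ln⁻¹ := inv_anti₀ hln0 hLln
  have hinvL0 : 0 ≤ L⁻¹ := by positivity
  have herr1 : s * d1 / 4 / L ≤ Vσ * d1 / 4 * ln⁻¹ := by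
    rw [div_eq_mul_inv]
    have e1 : s * d1 / 4 ≤ Vσ * d1 / 4 := by
      have := mul_le_mul_of_nonneg_right hsle hd1
      linarith
    exact mul_le_mul e1 hinvL hinvL0 (by positivity)
  have herr2 : Real.log (1 + 4 * L / s) / L ≤ 2 * Real.sqrt (1 + 8 / Vσ) * ln⁻¹ := by
    have e0 : 0 < 1 + 4 * L / s := by positivity
    have e1 := log_le_two_sqrt _ e0
    have e2 : 1 + 4 * L / s ≤ (1 + 8 / Vσ) * L := by
      have e21 : 4 * L / s ≤ 8 / Vσ * L := by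
        rw [div_le_iff₀ hs]
        have e22 : 8 / Vσ * L * s = 8 * L * (s / Vσ) := by field_simp
        rw [e22]
        have e23 : 1 / 2 ≤ s / Vσ := by
          rw [le_div_iff₀ hVσ]; linarith
        have e24 := mul_le_mul_of_nonneg_left e23 (by positivity : (0 : ℝ) ≤ 8 * L)
        linarith
      linarith
    have e3 : Real.sqrt (1 + 4 * L / s) ≤ Real.sqrt (1 + 8 / Vσ) * Real.sqrt L := by
      rw [← Real.sqrt_mul (by positivity)]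
      exact Real.sqrt_le_sqrt e2
    have e4 : Real.sqrt L ≤ L * ln⁻¹ := by
      rw [Real.sqrt_le_iff]
      constructor
      · positivity
      · rw [hLdef]
        have : (ln ^ 3 * ln⁻¹) ^ 2 = ln ^ 4 := by field_simp
        rw [this]
        nlinarith [pow_pos hln0 3]
    have e5 : 0 ≤ Real.sqrt (1 + 8 / Vσ) := Real.sqrt_nonneg _
    rw [div_le_iff₀ hL0]
    have e6 : Real.sqrt (1 + 8 / Vσ) * Real.sqrt L ≤
        Real.sqrt (1 + 8 / Vσ) * (L * ln⁻¹) := mul_le_mul_of_nonneg_left e4 e5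
    have e7 : 2 * Real.sqrt (1 + 8 / Vσ) * ln⁻¹ * L = 2 * (Real.sqrt (1 + 8 / Vσ) * (L * ln⁻¹)) := by
      ring
    linarith
  rw [add_div, add_mul]
  exact add_le_add herr1 herr2

/-- Bounds on the ratio `(ln + 1) ^ 3 / ln ^ 3`. -/
theorem ratio_bound (ln : ℝ) (hln : 1 ≤ ln) :
    1 ≤ (ln + 1) ^ 3 / ln ^ 3 ∧ (ln + 1) ^ 3 / ln ^ 3 ≤ 1 + 7 / ln ∧
      (ln + 1) ^ 3 / ln ^ 3 ≤ 8 := by
  have hln0 : 0 < ln := by linarith
  have hL0 : 0 < ln ^ 3 := by positivity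
  have h7 : (ln + 1) ^ 3 / ln ^ 3 ≤ 1 + 7 / ln := by
    rw [div_le_iff₀ hL0]
    have : (1 + 7 / ln) * ln ^ 3 = ln ^ 3 + 7 * ln ^ 2 := by field_simp
    rw [this]
    nlinarith [mul_nonneg hln0.le hln0.le]
  refine ⟨?_, h7, ?_⟩
  · rw [le_div_iff₀ hL0]; nlinarith [mul_nonneg hln0.le hln0.le]
  · have : 7 / ln ≤ 7 := by rw [div_le_iff₀ hln0]; linarith
    linarith

/-- The inequality for one fixed `n` and one fixed small `σ`. -/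
theorem per_n (f : ℝ → ℝ) (μ' c V σ τn δn ln γ w0 M B C0 C1 K0 d1 Gn : ℝ) (hn : ℝ → ℝ)
    (g : ℝ → ℝ)
    (hV : 0 < V) (hσ : 0 < σ) (hτ0 : 0 ≤ τn) (hτσ : τn ≤ σ) (hδ0 : 0 ≤ δn) (hδ1 : δn ≤ 1)
    (hl1 : 1 ≤ ln) (hγ : 0 ≤ γ) (hw0 : 0 ≤ w0) (hM : 0 ≤ M)
    (hB : B = |f μ'| + γ * w0 + M)
    (hC0 : 0 ≤ C0) (hC1 : 0 ≤ C1) (hK0 : K0 = 8 * C0 + 16 * C1 * μ' ^ 2)
    (hσ1 : 128 * C1 * (V * σ) ≤ 1) (hd1 : 0 ≤ d1) (hd1sq : d1 ^ 2 = 8 * (K0 + 1) / (V * σ))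
    (hd1w : 2 * (V * σ) * d1 ≤ w0)
    (hfw : ∀ u, 0 ≤ u → u ≤ w0 → f (μ' + u) ≤ f μ' + γ * u)
    (hgM : ∀ u, 0 ≤ u → u ≤ w0 → g (μ' + u) ≤ M)
    (hh0 : 0 ≤ hn μ')
    (hquad : ∀ m, hn m ≤ C0 + C1 * m ^ 2)
    (hcmp : ∀ m, hn m ≤ f m + δn * g m)
    (hclaim : ENNReal.ofReal (Real.exp (ln ^ 3 * Gn)) ≤
      ∑' j : ℕ, ENNReal.ofReal (Real.exp (-(V / 2 * (σ + τn)) * (j : ℝ) ^ 2 / ln ^ 3
        + (ln + 1) ^ 3 * hn (μ' + 2 * (V / 2 * (σ + τn)) * (j : ℝ) / ln ^ 3))))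
    (hE2 : f μ' + c * σ ≤ Gn) :
    (c - V / 2 * γ ^ 2) * σ ≤ V / 2 * γ ^ 2 * τn + M * δn
      + (7 * B + V * σ * d1 / 4 + 2 * Real.sqrt (1 + 8 / (V * σ))) * ln⁻¹ := by
  have hln0 : 0 < ln := by linarith
  obtain ⟨s, hsdef⟩ : ∃ s, s = V / 2 * (σ + τn) := ⟨_, rfl⟩
  rw [← hsdef] at hclaim
  have hVσ : 0 < V * σ := mul_pos hV hσ
  have hs : 0 < s := by rw [hsdef]; positivity
  have hsle : s ≤ V * σ := by
    have := mul_le_mul_of_nonneg_left hτσ hV.le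
    rw [hsdef]; linarith
  have hsge : V * σ / 2 ≤ s := by
    have := mul_nonneg hV.le hτ0
    rw [hsdef]; linarith
  have hL : 1 ≤ ln ^ 3 := one_le_pow₀ hl1
  obtain ⟨hκ1, hκ7, hκ8⟩ := ratio_bound ln hl1
  have hκ0 : 0 ≤ (ln + 1) ^ 3 / ln ^ 3 := by linarith
  have hB0 : 0 ≤ B := by rw [hB]; positivity
  have hhead : ∀ d, 0 ≤ d → d ≤ d1 →
      -s * d ^ 2 + (ln + 1) ^ 3 / ln ^ 3 * hn (μ' + 2 * s * d) ≤
        f μ' + s * γ ^ 2 + δn * M + 7 / ln * B :=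
    fun d hd0 hdd => head_bound f g hn μ' s _ δn ln γ w0 M B (V * σ) d1 d hs hsle hVσ.le hδ0 hδ1
      hγ hM hB hB0 hκ1 hκ7 hd1w hfw hgM hcmp hd0 hdd
  have hS : 0 ≤ f μ' + s * γ ^ 2 + δn * M + 7 / ln * B := by
    have h1 := hhead 0 le_rfl hd1
    have h2 : 0 ≤ (ln + 1) ^ 3 / ln ^ 3 * hn (μ' + 2 * s * 0) := by
      have : μ' + 2 * s * 0 = μ' := by ring
      rw [this]; exact mul_nonneg hκ0 hh0
    have h3 : -s * (0 : ℝ) ^ 2 = 0 := by ring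
    linarith
  have htail : ∀ d, d1 ≤ d →
      -s * d ^ 2 + (ln + 1) ^ 3 / ln ^ 3 * hn (μ' + 2 * s * d) ≤ -1 - s / 4 * d ^ 2 :=
    fun d hdd => tail_bound hn μ' s _ C0 C1 K0 (V * σ) d1 d hs hsle hsge hVσ hC0 hC1 hK0 hσ1
      hκ0 hκ8 hd1 hd1sq hquad hdd
  have hmain := claim_consequence (ln ^ 3) ((ln + 1) ^ 3) s Gn _ d1 μ' hn hL hs hd1 hS hhead htail
    hclaim
  have herr := err_bound s (ln ^ 3) ln (V * σ) d1 hl1 rfl hs hsle hsge hVσ hd1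
  have herr3 : 7 / ln * B = 7 * B * ln⁻¹ := by rw [div_eq_mul_inv]; ring
  have hsγ : s * γ ^ 2 = V / 2 * γ ^ 2 * σ + V / 2 * γ ^ 2 * τn := by rw [hsdef]; ring
  have hδM : δn * M = M * δn := mul_comm _ _
  have hfin : (7 * B + V * σ * d1 / 4 + 2 * Real.sqrt (1 + 8 / (V * σ))) * ln⁻¹ =
      7 * B * ln⁻¹ + (V * σ * d1 / 4 + 2 * Real.sqrt (1 + 8 / (V * σ))) * ln⁻¹ := by ring
  have hcσ : (c - V / 2 * γ ^ 2) * σ = c * σ - V / 2 * γ ^ 2 * σ := by ring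
  rw [hfin, hcσ]
  linarith

/-- The first-order expansion at a point of differentiability, in epsilon-delta form. -/
theorem deriv_expansion (f : ℝ → ℝ) (μ' D : ℝ) (hD : HasDerivAt f D μ') (ε : ℝ) (hε : 0 < ε) :
    ∃ w : ℝ, 0 < w ∧ ∀ u : ℝ, |u| < w → |f (μ' + u) - f μ' - u * D| ≤ ε * |u| := by
  have h1 := (hasDerivAt_iff_isLittleO_nhds_zero.mp hD).def hε
  rw [Metric.eventually_nhds_iff] at h1
  obtain ⟨w, hw, hball⟩ := h1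
  refine ⟨w, hw, fun u hu => ?_⟩
  have h2 := @hball u (by simpa [Real.dist_eq] using hu)
  simpa [Real.norm_eq_abs, smul_eq_mul] using h2

/-- The choice of the small parameters. -/
theorem choose_sigma (V C1 K0 w0 : ℝ) (hV : 0 < V) (hC1 : 0 ≤ C1) (hK0 : 0 ≤ K0) (hw0 : 0 < w0) :
    ∃ σ d1 : ℝ, 0 < σ ∧ 0 ≤ d1 ∧ 128 * C1 * (V * σ) ≤ 1 ∧ d1 ^ 2 = 8 * (K0 + 1) / (V * σ) ∧
      2 * (V * σ) * d1 ≤ w0 := by
  obtain ⟨σ, hσdef⟩ : ∃ σ, σ = min (1 / (128 * (C1 + 1) * V)) (w0 ^ 2 / (32 * (K0 + 1) * V)) :=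
    ⟨_, rfl⟩
  have hσ : 0 < σ := by rw [hσdef]; exact lt_min (by positivity) (by positivity)
  have hσ1 : 128 * C1 * (V * σ) ≤ 1 := by
    have h1 : σ ≤ 1 / (128 * (C1 + 1) * V) := by rw [hσdef]; exact min_le_left _ _
    rw [le_div_iff₀ (by positivity)] at h1
    nlinarith
  have hσ2 : 32 * (K0 + 1) * V * σ ≤ w0 ^ 2 := by
    have h1 : σ ≤ w0 ^ 2 / (32 * (K0 + 1) * V) := by rw [hσdef]; exact min_le_right _ _
    rw [le_div_iff₀ (by positivity)] at h1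
    linarith
  have hVσ : 0 < V * σ := mul_pos hV hσ
  refine ⟨σ, Real.sqrt (8 * (K0 + 1) / (V * σ)), hσ, Real.sqrt_nonneg _, hσ1,
    Real.sq_sqrt (by positivity), ?_⟩
  have hsq : (2 * (V * σ) * Real.sqrt (8 * (K0 + 1) / (V * σ))) ^ 2 = 32 * (K0 + 1) * V * σ := by
    rw [mul_pow, Real.sq_sqrt (by positivity)]; field_simp; ring
  have h0 : 0 ≤ 2 * (V * σ) * Real.sqrt (8 * (K0 + 1) / (V * σ)) := by positivity
  exact (pow_le_pow_iff_left₀ h0 hw0.le two_ne_zero).mp (by rw [hsq]; exact hσ2)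

/-- The choice of the slope `γ`. -/
theorem choose_gamma (a c V : ℝ) (_ha : 0 ≤ a) (hV : 0 < V) (hac : V / 2 * a ^ 2 < c) :
    ∃ γ : ℝ, a < γ ∧ V / 2 * γ ^ 2 < c := by
  have h1 : a ^ 2 < 2 * c / V := by rw [lt_div_iff₀ hV]; linarith
  have hmid0 : 0 ≤ (a ^ 2 + 2 * c / V) / 2 := by nlinarith [sq_nonneg a]
  refine ⟨Real.sqrt ((a ^ 2 + 2 * c / V) / 2), ?_, ?_⟩
  · apply Real.lt_sqrt_of_sq_lt; linarith
  · rw [Real.sq_sqrt hmid0]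
    have h2 : V / 2 * ((a ^ 2 + 2 * c / V) / 2) = V * a ^ 2 / 4 + c / 2 := by field_simp; ring
    rw [h2]; linarith

/-- Core version: all hypotheses for every `n`. -/
theorem not_differentiable_of_LP_core (f : ℝ → ℝ) (μ' a c V : ℝ) (ha : 0 ≤ a) (hV : 0 < V)
    (hac : V / 2 * a ^ 2 < c)
    (l τ δ : ℕ → ℝ) (hl1 : ∀ n, 1 ≤ l n) (hl : Tendsto l atTop atTop)
    (hτ0 : ∀ n, 0 ≤ τ n) (hτ : Tendsto τ atTop (𝓝 0))
    (hδ0 : ∀ n, 0 ≤ δ n) (hδ : Tendsto δ atTop (𝓝 0))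
    (h G : ℕ → ℝ → ℝ) (g : ℝ → ℝ) (C0 C1 : ℝ)
    (hh0 : ∀ n, 0 ≤ h n μ')
    (hquad : ∀ n m, h n m ≤ C0 + C1 * m ^ 2)
    (hcmp : ∀ n m, h n m ≤ f m + δ n * g m)
    (hg : ∀ K : ℝ, ∃ M : ℝ, ∀ m, |m| ≤ K → g m ≤ M)
    (hclaim : ∀ n σ, 0 < σ →
      ENNReal.ofReal (Real.exp (l n ^ 3 * G n σ)) ≤
        ∑' j : ℕ, ENNReal.ofReal (Real.exp (-(V / 2 * (σ + τ n)) * (j : ℝ) ^ 2 / l n ^ 3
          + (l n + 1) ^ 3 * h n (μ' + 2 * (V / 2 * (σ + τ n)) * (j : ℝ) / l n ^ 3))))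
    (hE1 : ∀ u, 0 < u → f μ' - a * u ≤ f (μ' - u))
    (hE2 : ∀ n σ, 0 < σ → f μ' + c * σ ≤ G n σ) :
    ¬ DifferentiableAt ℝ f μ' := by
  intro hdiff
  obtain ⟨D, hD⟩ : ∃ D, HasDerivAt f D μ' := ⟨_, hdiff.hasDerivAt⟩
  -- the derivative is at most `a`
  have hDa : D ≤ a := by
    by_contra hcon
    rw [not_le] at hcon
    obtain ⟨w, hw, hball⟩ := deriv_expansion f μ' D hD ((D - a) / 2) (by linarith)
    have hw2 : (0 : ℝ) < w / 2 := by linarith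
    have h1 := hball (-(w / 2)) (by rw [abs_neg, abs_of_pos hw2]; linarith)
    have h2 := hE1 (w / 2) hw2
    rw [abs_neg, abs_of_pos hw2] at h1
    have h3 := (abs_le.mp h1).2
    have h4 : μ' + -(w / 2) = μ' - w / 2 := by ring
    rw [h4] at h3
    nlinarith [mul_pos hw (sub_pos.mpr hcon)]
  obtain ⟨γ, hγa, hγc⟩ := choose_gamma a c V ha hV hac
  have hγpos : 0 < γ := lt_of_le_of_lt ha hγa
  obtain ⟨w1, hw1, hball⟩ := deriv_expansion f μ' D hD (γ - a) (by linarith)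
  have hw0 : (0 : ℝ) < w1 / 2 := by linarith
  have hfw : ∀ u, 0 ≤ u → u ≤ w1 / 2 → f (μ' + u) ≤ f μ' + γ * u := by
    intro u hu0 hu1
    have h1 := hball u (by rw [abs_of_nonneg hu0]; linarith)
    rw [abs_of_nonneg hu0] at h1
    have h3 := (abs_le.mp h1).2
    have h4 := mul_le_mul_of_nonneg_left hDa hu0
    linarith
  obtain ⟨M0, hM0⟩ := hg (|μ'| + w1 / 2)
  have hM : 0 ≤ max M0 0 := le_max_right _ _
  have hgM : ∀ u, 0 ≤ u → u ≤ w1 / 2 → g (μ' + u) ≤ max M0 0 := by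
    intro u hu0 hu1
    refine (hM0 _ ?_).trans (le_max_left _ _)
    calc |μ' + u| ≤ |μ'| + |u| := abs_add_le _ _
      _ ≤ |μ'| + w1 / 2 := by rw [abs_of_nonneg hu0]; linarith
  have hK0 : 0 ≤ 8 * |C0| + 16 * |C1| * μ' ^ 2 := by positivity
  obtain ⟨σ, d1, hσ, hd1, hσ1, hd1sq, hd1w⟩ :=
    choose_sigma V |C1| (8 * |C0| + 16 * |C1| * μ' ^ 2) (w1 / 2) hV (abs_nonneg _) hK0 hw0
  have hgap : 0 < c - V / 2 * γ ^ 2 := by linarith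
  have hev : ∀ᶠ n in atTop, (c - V / 2 * γ ^ 2) * σ ≤ V / 2 * γ ^ 2 * τ n + max M0 0 * δ n
      + (7 * (|f μ'| + γ * (w1 / 2) + max M0 0) + V * σ * d1 / 4
        + 2 * Real.sqrt (1 + 8 / (V * σ))) * (l n)⁻¹ := by
    have e1 : ∀ᶠ n in atTop, τ n < σ := (tendsto_order.1 hτ).2 σ hσ
    have e2 : ∀ᶠ n in atTop, δ n < 1 := (tendsto_order.1 hδ).2 1 one_pos
    filter_upwards [e1, e2] with n hn1 hn2
    exact per_n f μ' c V σ (τ n) (δ n) (l n) γ (w1 / 2) (max M0 0) _ |C0| |C1| _ d1 (G n σ) (h n) g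
      hV hσ (hτ0 n) hn1.le (hδ0 n) hn2.le (hl1 n) hγpos.le hw0.le hM rfl (abs_nonneg _)
      (abs_nonneg _) rfl hσ1 hd1 hd1sq hd1w hfw hgM (hh0 n)
      (fun m => (hquad n m).trans (add_le_add (le_abs_self C0)
        (mul_le_mul_of_nonneg_right (le_abs_self C1) (sq_nonneg m))))
      (hcmp n) (hclaim n σ hσ) (hE2 n σ hσ)
  have hlim : Tendsto (fun n => V / 2 * γ ^ 2 * τ n + max M0 0 * δ n
      + (7 * (|f μ'| + γ * (w1 / 2) + max M0 0) + V * σ * d1 / 4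
        + 2 * Real.sqrt (1 + 8 / (V * σ))) * (l n)⁻¹) atTop (𝓝 0) := by
    have h1 := (hτ.const_mul (V / 2 * γ ^ 2)).add (hδ.const_mul (max M0 0))
    have h2 := (tendsto_inv_atTop_zero.comp hl).const_mul
      (7 * (|f μ'| + γ * (w1 / 2) + max M0 0) + V * σ * d1 / 4
        + 2 * Real.sqrt (1 + 8 / (V * σ)))
    have h3 := h1.add h2
    simpa using h3
  have hfinal := ge_of_tendsto hlim hev
  nlinarith [mul_pos hgap hσ]

/-- The endgame of the kink argument: the Lebowitz-Penrose type upper bound `hclaim`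
together with the two one-sided inequalities `hE1`, `hE2` from the variational principle
is incompatible with differentiability of `f` at `μ'`. -/
theorem not_differentiable_of_LP (f : ℝ → ℝ) (μ' a c V : ℝ) (ha : 0 ≤ a) (hV : 0 < V)
    (hac : V / 2 * a ^ 2 < c) (n0 : ℕ)
    (l τ δ : ℕ → ℝ) (hl1 : ∀ n, n0 ≤ n → 1 ≤ l n) (hl : Tendsto l atTop atTop)
    (hτ0 : ∀ n, n0 ≤ n → 0 ≤ τ n) (hτ : Tendsto τ atTop (𝓝 0))
    (hδ0 : ∀ n, n0 ≤ n → 0 ≤ δ n) (hδ : Tendsto δ atTop (𝓝 0))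
    (h G : ℕ → ℝ → ℝ) (g : ℝ → ℝ) (C0 C1 : ℝ)
    (hh0 : ∀ n, n0 ≤ n → 0 ≤ h n μ')
    (hquad : ∀ n m, n0 ≤ n → h n m ≤ C0 + C1 * m ^ 2)
    (hcmp : ∀ n m, n0 ≤ n → h n m ≤ f m + δ n * g m)
    (hg : ∀ K : ℝ, ∃ M : ℝ, ∀ m, |m| ≤ K → g m ≤ M)
    (hclaim : ∀ n σ, n0 ≤ n → 0 < σ →
      ENNReal.ofReal (Real.exp (l n ^ 3 * G n σ)) ≤
        ∑' j : ℕ, ENNReal.ofReal (Real.exp (-(V / 2 * (σ + τ n)) * (j : ℝ) ^ 2 / l n ^ 3
          + (l n + 1) ^ 3 * h n (μ' + 2 * (V / 2 * (σ + τ n)) * (j : ℝ) / l n ^ 3))))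
    (hE1 : ∀ u, 0 < u → f μ' - a * u ≤ f (μ' - u))
    (hE2 : ∀ n σ, n0 ≤ n → 0 < σ → f μ' + c * σ ≤ G n σ) :
    ¬ DifferentiableAt ℝ f μ' := by
  refine not_differentiable_of_LP_core f μ' a c V ha hV hac
    (fun n => l (n + n0)) (fun n => τ (n + n0)) (fun n => δ (n + n0))
    (fun n => hl1 _ (Nat.le_add_left _ _)) ?_
    (fun n => hτ0 _ (Nat.le_add_left _ _)) ?_
    (fun n => hδ0 _ (Nat.le_add_left _ _)) ?_
    (fun n => h (n + n0)) (fun n => G (n + n0)) g C0 C1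
    (fun n => hh0 _ (Nat.le_add_left _ _))
    (fun n m => hquad _ m (Nat.le_add_left _ _))
    (fun n m => hcmp _ m (Nat.le_add_left _ _)) hg
    (fun n σ hσ => hclaim _ σ (Nat.le_add_left _ _) hσ) hE1
    (fun n σ hσ => hE2 _ σ (Nat.le_add_left _ _) hσ)
  · exact hl.comp (tendsto_add_atTop_nat n0)
  · exact hτ.comp (tendsto_add_atTop_nat n0)
  · exact hδ.comp (tendsto_add_atTop_nat n0)

/-- Derivative form of the upper bound, core version (hypotheses for every `n`):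
if `f` has derivative `D` at `μ'` then a small `σ` raises `G n σ` above `f μ'` by at most
`σ * (V / 2 * D ^ 2 + ε)`, for all large `n`. -/
theorem lp_deriv_abstract_core (f : ℝ → ℝ) (μ' D V ε : ℝ) (hD : HasDerivAt f D μ') (hV : 0 < V)
    (hε : 0 < ε)
    (l τ δ : ℕ → ℝ) (hl1 : ∀ n, 1 ≤ l n) (hl : Tendsto l atTop atTop)
    (hτ0 : ∀ n, 0 ≤ τ n) (hτ : Tendsto τ atTop (𝓝 0))
    (hδ0 : ∀ n, 0 ≤ δ n) (hδ : Tendsto δ atTop (𝓝 0))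
    (h G : ℕ → ℝ → ℝ) (g : ℝ → ℝ) (C0 C1 : ℝ)
    (hh0 : ∀ n, 0 ≤ h n μ')
    (hquad : ∀ n m, h n m ≤ C0 + C1 * m ^ 2)
    (hcmp : ∀ n m, h n m ≤ f m + δ n * g m)
    (hg : ∀ K : ℝ, ∃ M : ℝ, ∀ m, |m| ≤ K → g m ≤ M)
    (hclaim : ∀ n σ, 0 < σ →
      ENNReal.ofReal (Real.exp (l n ^ 3 * G n σ)) ≤
        ∑' j : ℕ, ENNReal.ofReal (Real.exp (-(V / 2 * (σ + τ n)) * (j : ℝ) ^ 2 / l n ^ 3
          + (l n + 1) ^ 3 * h n (μ' + 2 * (V / 2 * (σ + τ n)) * (j : ℝ) / l n ^ 3)))) :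
    ∃ σ : ℝ, 0 < σ ∧ ∃ n1 : ℕ, ∀ n : ℕ, n1 ≤ n → G n σ ≤ f μ' + σ * (V / 2 * D ^ 2 + ε) := by
  have hεV : 0 < ε / V := div_pos hε hV
  obtain ⟨γ, hγdef⟩ : ∃ γ, γ = Real.sqrt (D ^ 2 + ε / V) := ⟨_, rfl⟩
  have hγsq : γ ^ 2 = D ^ 2 + ε / V := by
    rw [hγdef]; exact Real.sq_sqrt (by positivity)
  have hγabs : |D| < γ := by
    rw [hγdef]; apply Real.lt_sqrt_of_sq_lt; rw [sq_abs]; linarith
  have hγD : D < γ := lt_of_le_of_lt (le_abs_self D) hγabs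
  have hγpos : 0 < γ := lt_of_le_of_lt (abs_nonneg D) hγabs
  obtain ⟨w1, hw1, hball⟩ := deriv_expansion f μ' D hD (γ - D) (by linarith)
  have hw0 : (0 : ℝ) < w1 / 2 := by linarith
  have hfw : ∀ u, 0 ≤ u → u ≤ w1 / 2 → f (μ' + u) ≤ f μ' + γ * u := by
    intro u hu0 hu1
    have h1 := hball u (by rw [abs_of_nonneg hu0]; linarith)
    rw [abs_of_nonneg hu0] at h1
    have h3 := (abs_le.mp h1).2
    have h4 : (γ - D) * u = γ * u - u * D := by ring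
    linarith
  obtain ⟨M0, hM0⟩ := hg (|μ'| + w1 / 2)
  have hM : 0 ≤ max M0 0 := le_max_right _ _
  have hgM : ∀ u, 0 ≤ u → u ≤ w1 / 2 → g (μ' + u) ≤ max M0 0 := by
    intro u hu0 hu1
    refine (hM0 _ ?_).trans (le_max_left _ _)
    calc |μ' + u| ≤ |μ'| + |u| := abs_add_le _ _
      _ ≤ |μ'| + w1 / 2 := by rw [abs_of_nonneg hu0]; linarith
  have hK0 : 0 ≤ 8 * |C0| + 16 * |C1| * μ' ^ 2 := by positivity
  obtain ⟨σ, d1, hσ, hd1, hσ1, hd1sq, hd1w⟩ :=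
    choose_sigma V |C1| (8 * |C0| + 16 * |C1| * μ' ^ 2) (w1 / 2) hV (abs_nonneg _) hK0 hw0
  have hlim : Tendsto (fun n => V / 2 * γ ^ 2 * τ n + max M0 0 * δ n
      + (7 * (|f μ'| + γ * (w1 / 2) + max M0 0) + V * σ * d1 / 4
        + 2 * Real.sqrt (1 + 8 / (V * σ))) * (l n)⁻¹) atTop (𝓝 0) := by
    have h1 := (hτ.const_mul (V / 2 * γ ^ 2)).add (hδ.const_mul (max M0 0))
    have h2 := (tendsto_inv_atTop_zero.comp hl).const_mul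
      (7 * (|f μ'| + γ * (w1 / 2) + max M0 0) + V * σ * d1 / 4
        + 2 * Real.sqrt (1 + 8 / (V * σ)))
    have h3 := h1.add h2
    simpa using h3
  have e1 : ∀ᶠ n in atTop, τ n < σ := (tendsto_order.1 hτ).2 σ hσ
  have e2 : ∀ᶠ n in atTop, δ n < 1 := (tendsto_order.1 hδ).2 1 one_pos
  have e3 := (tendsto_order.1 hlim).2 (σ * ε / 2) (by positivity)
  have hev : ∀ᶠ n in atTop, G n σ ≤ f μ' + σ * (V / 2 * D ^ 2 + ε) := by
    filter_upwards [e1, e2, e3] with n hn1 hn2 hn3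
    have hc : f μ' + (G n σ - f μ') / σ * σ ≤ G n σ := by
      rw [div_mul_cancel₀ _ hσ.ne']; linarith
    have hper := per_n f μ' ((G n σ - f μ') / σ) V σ (τ n) (δ n) (l n) γ (w1 / 2) (max M0 0) _
      |C0| |C1| _ d1 (G n σ) (h n) g
      hV hσ (hτ0 n) hn1.le (hδ0 n) hn2.le (hl1 n) hγpos.le hw0.le hM rfl (abs_nonneg _)
      (abs_nonneg _) rfl hσ1 hd1 hd1sq hd1w hfw hgM (hh0 n)
      (fun m => (hquad n m).trans (add_le_add (le_abs_self C0)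
        (mul_le_mul_of_nonneg_right (le_abs_self C1) (sq_nonneg m))))
      (hcmp n) (hclaim n σ hσ) hc
    have h5 : ((G n σ - f μ') / σ - V / 2 * γ ^ 2) * σ = G n σ - f μ' - V / 2 * γ ^ 2 * σ := by
      rw [sub_mul, div_mul_cancel₀ _ hσ.ne']
    rw [h5] at hper
    have h6 : V / 2 * γ ^ 2 * σ = σ * (V / 2 * D ^ 2) + σ * ε / 2 := by
      rw [hγsq]; field_simp
    have h7 : σ * (V / 2 * D ^ 2 + ε) = σ * (V / 2 * D ^ 2) + σ * ε / 2 + σ * ε / 2 := by ring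
    rw [h7]
    linarith
  obtain ⟨n1, hn1⟩ := eventually_atTop.1 hev
  exact ⟨σ, hσ, n1, hn1⟩

/-- Derivative form of the Lebowitz-Penrose type upper bound (abstract version of the
statement `lp_deriv` of the tree): hypotheses for `n ≥ n0`. -/
theorem lp_deriv_abstract (f : ℝ → ℝ) (μ' D V ε : ℝ) (hD : HasDerivAt f D μ') (hV : 0 < V)
    (hε : 0 < ε) (n0 : ℕ)
    (l τ δ : ℕ → ℝ) (hl1 : ∀ n, n0 ≤ n → 1 ≤ l n) (hl : Tendsto l atTop atTop)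
    (hτ0 : ∀ n, n0 ≤ n → 0 ≤ τ n) (hτ : Tendsto τ atTop (𝓝 0))
    (hδ0 : ∀ n, n0 ≤ n → 0 ≤ δ n) (hδ : Tendsto δ atTop (𝓝 0))
    (h G : ℕ → ℝ → ℝ) (g : ℝ → ℝ) (C0 C1 : ℝ)
    (hh0 : ∀ n, n0 ≤ n → 0 ≤ h n μ')
    (hquad : ∀ n m, n0 ≤ n → h n m ≤ C0 + C1 * m ^ 2)
    (hcmp : ∀ n m, n0 ≤ n → h n m ≤ f m + δ n * g m)
    (hg : ∀ K : ℝ, ∃ M : ℝ, ∀ m, |m| ≤ K → g m ≤ M)
    (hclaim : ∀ n σ, n0 ≤ n → 0 < σ →
      ENNReal.ofReal (Real.exp (l n ^ 3 * G n σ)) ≤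
        ∑' j : ℕ, ENNReal.ofReal (Real.exp (-(V / 2 * (σ + τ n)) * (j : ℝ) ^ 2 / l n ^ 3
          + (l n + 1) ^ 3 * h n (μ' + 2 * (V / 2 * (σ + τ n)) * (j : ℝ) / l n ^ 3)))) :
    ∃ σ : ℝ, 0 < σ ∧ ∃ n1 : ℕ, ∀ n : ℕ, n1 ≤ n → G n σ ≤ f μ' + σ * (V / 2 * D ^ 2 + ε) := by
  obtain ⟨σ, hσ, n1, hn1⟩ := lp_deriv_abstract_core f μ' D V ε hD hV hε
    (fun n => l (n + n0)) (fun n => τ (n + n0)) (fun n => δ (n + n0))
    (fun n => hl1 _ (Nat.le_add_left _ _)) (hl.comp (tendsto_add_atTop_nat n0))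
    (fun n => hτ0 _ (Nat.le_add_left _ _)) (hτ.comp (tendsto_add_atTop_nat n0))
    (fun n => hδ0 _ (Nat.le_add_left _ _)) (hδ.comp (tendsto_add_atTop_nat n0))
    (fun n => h (n + n0)) (fun n => G (n + n0)) g C0 C1
    (fun n => hh0 _ (Nat.le_add_left _ _))
    (fun n m => hquad _ m (Nat.le_add_left _ _))
    (fun n m => hcmp _ m (Nat.le_add_left _ _)) hg
    (fun n σ hσ => hclaim _ σ (Nat.le_add_left _ _) hσ)
  refine ⟨σ, hσ, n1 + n0, fun n hn => ?_⟩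
  have h1 := hn1 (n - n0) (by omega)
  have h2 : n - n0 + n0 = n := by omega
  simpa [h2] using h1

end Vale.Agent.H40.P171
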